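import Mathlib
import Vale.Agent.Lib.P068.Main

namespace Vale.Agent.Results.P068.AlmostNestedBases

open Vale.Agent.Lib.P068

/-- Let `M`, `N` be arbitrary (possibly infinite, not necessarily finitary) matroids on a common
ground set of any cardinality.  If some base of one of them is contained, up to finitely many
elements, in some base of the other, then `(M, N)` satisfies intersection.  In particular this
holds as soon as one of the two matroids has finite rank or finite corank. -/
theorem result {α : Type*} (M N : Matroid α) (hE : M.E = N.E) :
    (∀ B B' : Set α, M.IsBase B → N.IsBase B' → ((B \ B').Finite ∨ (B' \ B).Finite) →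
      SatisfiesIntersection M N) ∧
    ((M.RankFinite ∨ M✶.RankFinite ∨ N.RankFinite ∨ N✶.RankFinite) →
      SatisfiesIntersection M N) := by
  refine ⟨?_, ?_⟩
  · rintro B B' hB hB' (h | h)
    · exact satisfiesIntersection_of_isBase_sdiff_finite hE hB hB' h
    · exact satisfiesIntersection_of_isBase_sdiff_finite' hE hB hB' h
  · rintro (h | h | h | h)
    · exact satisfiesIntersection_of_rankFinite hE
    · exact satisfiesIntersection_of_dual_rankFinite hE
    · exact (satisfiesIntersection_of_rankFinite hE.symm).symm hE.symm
    · exact (satisfiesIntersection_of_dual_rankFinite hE.symm).symm hE.symm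

end Vale.Agent.Results.P068.AlmostNestedBases
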