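import Mathlib
import Vale.Agent.Lib.P068.Main

namespace Vale.Agent.Results.P068.WalkCriterion

open Vale.Agent.Lib.P068

/-- For arbitrary matroids `M`, `N` on a common ground set: `(M, N)` satisfies intersection if and
only if some common independent set has no augmenting walk in its exchange digraph; and a common
independent set `J` with an augmenting walk can be replaced by a common independent set `J'` whose
`M`-closure is that of `J` together with one new element outside `cl_M J`. -/
theorem result {α : Type*} (M N : Matroid α) (hE : M.E = N.E) :
    (SatisfiesIntersection M N ↔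
      ∃ J : Set α, M.Indep J ∧ N.Indep J ∧ ¬ HasAugmentingWalk M N J) ∧
    (∀ J : Set α, M.Indep J → N.Indep J → HasAugmentingWalk M N J →
      ∃ J' : Set α, M.Indep J' ∧ N.Indep J' ∧
        ∃ e ∈ M.E \ M.closure J, M.closure J' = M.closure (insert e J)) := by
  refine ⟨satisfiesIntersection_iff hE, ?_⟩
  intro J hM hN hw
  obtain ⟨J', h1, h2, h3, -⟩ := exists_larger_of_walk hM hN hw
  exact ⟨J', h1, h2, h3⟩

end Vale.Agent.Results.P068.WalkCriterion
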